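import Mathlib

namespace Vale.Agent.Results.P068.FiniteRank

open Set Matroid

variable {α : Type*}

/-- In a matroid with finite ground set every rank is finite. -/
lemma eRk_ne_top_of_finite (M : Matroid α) (hfin : M.E.Finite) (X : Set α) : M.eRk X ≠ ⊤ := by
  have h1 : M.eRk X ≤ M.E.encard := (M.eRk_le_eRank X).trans M.eRank_le_encard_ground
  have h2 : M.E.encard ≠ ⊤ := encard_ne_top_iff.2 hfin
  exact ne_top_of_le_ne_top h2 h1

/-- Rank formula for the contraction of a nonloop. -/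
lemma eRk_contractElem_add_one (M : Matroid α) {s : α} (hs : M.IsNonloop s) (B : Set α)
    (hB : B ⊆ M.E \ {s}) : (M ／ {s}).eRk B + 1 = M.eRk (insert s B) := by
  obtain ⟨I, hI⟩ := (M ／ {s}).exists_isBasis B hB
  have h1 := hs.indep.union_isBasis_union_of_contract_isBasis hI
  rw [union_singleton, union_singleton] at h1
  have hsI : s ∉ I := fun h => (hB (hI.subset h)).2 rfl
  rw [← hI.encard_eq_eRk, ← h1.encard_eq_eRk, encard_insert_of_notMem hsI]

/-- The arithmetic core of the submodularity argument. -/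
lemma arith_contra (k : ℕ) (mA nX cB cY m1 n1 m2 n2 : ℕ∞)
    (hmA : mA ≠ ⊤) (hnX : nX ≠ ⊤) (hcB : cB ≠ ⊤) (hcY : cY ≠ ⊤)
    (hm1 : m1 ≠ ⊤) (hn1 : n1 ≠ ⊤) (hm2 : m2 ≠ ⊤) (hn2 : n2 ≠ ⊤)
    (h1 : mA + nX < k) (h2 : cB + cY < ((k - 1 : ℕ) : ℕ∞))
    (h3 : (k : ℕ∞) ≤ m1 + n1) (h4 : (k : ℕ∞) ≤ m2 + n2)
    (h5 : m1 + m2 ≤ mA + (cB + 1)) (h6 : n2 + n1 ≤ nX + (cY + 1)) : False := by
  lift mA to ℕ using hmA
  lift nX to ℕ using hnX
  lift cB to ℕ using hcB
  lift cY to ℕ using hcY
  lift m1 to ℕ using hm1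
  lift n1 to ℕ using hn1
  lift m2 to ℕ using hm2
  lift n2 to ℕ using hn2
  norm_cast at h1 h2 h3 h4 h5 h6
  omega

/-- Finite matroid intersection, in the form needed: if every `U` satisfies
`k ≤ r_M(U) + r_N(E \ U)` then there is a common independent set of size at least `k`. -/
theorem finite_aux (n : ℕ) : ∀ (M N : Matroid α), M.E = N.E → M.E.Finite → M.E.ncard = n →
    ∀ k : ℕ, (∀ U ⊆ M.E, (k : ℕ∞) ≤ M.eRk U + N.eRk (M.E \ U)) →
    ∃ I, M.Indep I ∧ N.Indep I ∧ (k : ℕ∞) ≤ I.encard := by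
  induction n using Nat.strong_induction_on with
  | _ n ih =>
  intro M N hE hfin hn k h
  rcases Nat.eq_zero_or_pos k with rfl | hk
  · exact ⟨∅, M.empty_indep, N.empty_indep, by simp⟩
  by_cases hs : ∃ s, M.IsNonloop s ∧ N.IsNonloop s
  · obtain ⟨s, hsM, hsN⟩ := hs
    have hsE : s ∈ M.E := hsM.mem_ground
    have hlt : (M.E \ {s}).ncard < n := hn ▸ ncard_sdiff_singleton_lt_of_mem hsE hfin
    have hfin' : (M.E \ {s}).Finite := hfin.subset sdiff_subset
    have hE' : M.E \ {s} = N.E \ {s} := by rw [hE]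
    -- deletion
    by_cases hdel : ∀ U ⊆ (M ＼ {s}).E,
        (k : ℕ∞) ≤ (M ＼ {s}).eRk U + (N ＼ {s}).eRk ((M ＼ {s}).E \ U)
    · obtain ⟨I, hIM, hIN, hIk⟩ := ih _ hlt (M ＼ {s}) (N ＼ {s}) hE' hfin' rfl k hdel
      exact ⟨I, hIM.of_delete, hIN.of_delete, hIk⟩
    -- contraction
    by_cases hcon : ∀ U ⊆ (M ／ {s}).E,
        ((k - 1 : ℕ) : ℕ∞) ≤ (M ／ {s}).eRk U + (N ／ {s}).eRk ((M ／ {s}).E \ U)
    · obtain ⟨I, hIM, hIN, hIk⟩ := ih _ hlt (M ／ {s}) (N ／ {s}) hE' hfin' rfl (k - 1) hcon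
      rw [hsM.contractElem_indep_iff] at hIM
      rw [hsN.contractElem_indep_iff] at hIN
      refine ⟨insert s I, hIM.2, hIN.2, ?_⟩
      rw [encard_insert_of_notMem hIM.1]
      have : ((k - 1 : ℕ) : ℕ∞) + 1 ≤ I.encard + 1 := by gcongr
      refine le_trans ?_ this
      norm_cast
      omega
    exfalso
    push Not at hdel hcon
    obtain ⟨A, hA, hAlt⟩ := hdel
    obtain ⟨B, hB, hBlt⟩ := hcon
    have hA' : A ⊆ M.E \ {s} := hA
    have hB' : B ⊆ M.E \ {s} := hB
    have hsA : s ∉ A := fun h => (hA' h).2 rfl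
    have hsB : s ∉ B := fun h => (hB' h).2 rfl
    -- rewrite the deletion ranks
    have e1 : (M ＼ {s}).eRk A = M.eRk A := by
      rw [Matroid.delete_eq_restrict, M.restrict_eRk_eq hA']
    have e2 : (N ＼ {s}).eRk ((M ＼ {s}).E \ A) = N.eRk ((M.E \ {s}) \ A) := by
      rw [Matroid.delete_eq_restrict, Matroid.delete_ground, N.restrict_eRk_eq]
      rw [← hE]
      exact sdiff_subset
    rw [e1, e2] at hAlt
    -- rewrite the contraction ranks
    have e3 : (M ／ {s}).eRk B + 1 = M.eRk (insert s B) :=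
      eRk_contractElem_add_one M hsM B hB'
    have e4 : (N ／ {s}).eRk ((M ／ {s}).E \ B) + 1 = N.eRk (M.E \ B) := by
      rw [eRk_contractElem_add_one N hsN]
      · congr 1
        ext x
        simp only [Matroid.contract_ground, mem_insert_iff, mem_sdiff, mem_singleton_iff]
        constructor
        · rintro (rfl | ⟨⟨hx, _⟩, hxB⟩)
          · exact ⟨hsE, hsB⟩
          · exact ⟨hx, hxB⟩
        · rintro ⟨hx, hxB⟩
          by_cases hxs : x = s
          · exact Or.inl hxs
          · exact Or.inr ⟨⟨hx, hxs⟩, hxB⟩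
      · rw [Matroid.contract_ground, ← hE]
        exact sdiff_subset
    -- the two sets to which the hypothesis is applied
    have h3 := h (A ∩ B) (inter_subset_left.trans (hA'.trans sdiff_subset))
    have h4 := h (A ∪ insert s B)
      (union_subset (hA'.trans sdiff_subset) (insert_subset hsE (hB'.trans sdiff_subset)))
    have h5 := M.eRk_inter_add_eRk_union_le A (insert s B)
    have hAB : A ∩ insert s B = A ∩ B := by
      ext x
      simp only [mem_inter_iff, mem_insert_iff]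
      constructor
      · rintro ⟨hxA, rfl | hxB⟩
        · exact absurd hxA hsA
        · exact ⟨hxA, hxB⟩
      · rintro ⟨hxA, hxB⟩
        exact ⟨hxA, Or.inr hxB⟩
    rw [hAB] at h5
    have h6 := N.eRk_inter_add_eRk_union_le ((M.E \ {s}) \ A) (M.E \ B)
    have hXY1 : ((M.E \ {s}) \ A) ∩ (M.E \ B) = M.E \ (A ∪ insert s B) := by
      ext x
      simp only [mem_inter_iff, mem_sdiff, mem_singleton_iff, mem_union, mem_insert_iff]
      tauto
    have hXY2 : ((M.E \ {s}) \ A) ∪ (M.E \ B) = M.E \ (A ∩ B) := by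
      ext x
      simp only [mem_inter_iff, mem_sdiff, mem_singleton_iff, mem_union]
      constructor
      · rintro (⟨⟨hx, _⟩, hxA⟩ | ⟨hx, hxB⟩)
        · exact ⟨hx, fun h => hxA h.1⟩
        · exact ⟨hx, fun h => hxB h.2⟩
      · rintro ⟨hx, hxAB⟩
        by_cases hxB : x ∈ B
        · refine Or.inl ⟨⟨hx, ?_⟩, fun hxA => hxAB ⟨hxA, hxB⟩⟩
          rintro rfl
          exact hsB hxB
        · exact Or.inr ⟨hx, hxB⟩
    rw [hXY1, hXY2] at h6
    rw [← e3] at h5
    rw [← e4] at h6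
    have hfinN : N.E.Finite := hE ▸ hfin
    exact arith_contra k (M.eRk A) (N.eRk ((M.E \ {s}) \ A)) ((M ／ {s}).eRk B)
      ((N ／ {s}).eRk ((M ／ {s}).E \ B)) (M.eRk (A ∩ B)) (N.eRk (M.E \ (A ∩ B)))
      (M.eRk (A ∪ insert s B)) (N.eRk (M.E \ (A ∪ insert s B)))
      (eRk_ne_top_of_finite M hfin _) (eRk_ne_top_of_finite N hfinN _)
      (eRk_ne_top_of_finite (M ／ {s}) hfin' _)
      (eRk_ne_top_of_finite (N ／ {s}) (show (N.E \ {s}).Finite from hE' ▸ hfin') _)
      (eRk_ne_top_of_finite M hfin _) (eRk_ne_top_of_finite N hfinN _)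
      (eRk_ne_top_of_finite M hfin _) (eRk_ne_top_of_finite N hfinN _)
      hAlt hBlt h3 h4 h5 h6
  · -- no common nonloop: the loops of `M` give a contradiction
    exfalso
    push Not at hs
    have h0 := h M.loops M.loops_subset_ground
    have hN0 : N.eRk (M.E \ M.loops) = 0 := by
      rw [Matroid.eRk_eq_zero_iff']
      rintro x ⟨hx, hxN⟩
      have hxM : M.IsNonloop x := Matroid.isNonloop_iff_mem_compl_loops.2 hx
      have := hs x hxM
      rwa [Matroid.not_isNonloop_iff] at this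
    rw [Matroid.eRk_loops, hN0] at h0
    norm_cast at h0
    omega

/-- Arithmetic for the equality case. -/
lemma arith_eq (j : ℕ) (a b x y : ℕ∞) (hx : x ≠ ⊤) (hy : y ≠ ⊤) (h1 : a ≤ x) (h2 : b ≤ y)
    (h3 : b + a = j) (h4 : x + y < ((j + 1 : ℕ) : ℕ∞)) : x ≤ a ∧ y ≤ b := by
  have ha : a ≠ ⊤ := ne_top_of_le_ne_top hx h1
  have hb : b ≠ ⊤ := ne_top_of_le_ne_top hy h2
  lift x to ℕ using hx
  lift y to ℕ using hy
  lift a to ℕ using ha
  lift b to ℕ using hb
  norm_cast at h1 h2 h3 h4 ⊢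
  omega

/-- Finite case, covering form: a maximum common independent set `J` of two matroids on a common
finite ground set splits as `J ∩ U`, `J \ U` with `U` spanned by `J ∩ U` in `M` and the
complement of `U` spanned by `J \ U` in `N`. -/
theorem finite_cover (M N : Matroid α) (hE : M.E = N.E) (hfin : M.E.Finite) (J : Set α)
    (hJM : M.Indep J) (hJN : N.Indep J)
    (hmax : ∀ I, M.Indep I → N.Indep I → I.encard ≤ J.encard) :
    ∃ U ⊆ M.E, U ⊆ M.closure (J ∩ U) ∧ M.E \ U ⊆ N.closure (J \ U) := by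
  have hJfin : J.Finite := hfin.subset hJM.subset_ground
  obtain ⟨j, hj⟩ : ∃ j : ℕ, J.encard = j := ⟨J.ncard, (hJfin.cast_ncard_eq).symm⟩
  have key : ¬ ∀ U ⊆ M.E, ((j + 1 : ℕ) : ℕ∞) ≤ M.eRk U + N.eRk (M.E \ U) := by
    intro hall
    obtain ⟨I, hIM, hIN, hI⟩ := finite_aux _ M N hE hfin rfl (j + 1) hall
    have h1 := hmax I hIM hIN
    rw [hj] at h1
    have h2 := hI.trans h1
    norm_cast at h2
    omega
  push Not at key
  obtain ⟨U, hU, hlt⟩ := key
  have hfinN : N.E.Finite := hE ▸ hfin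
  have hJU : M.Indep (J ∩ U) := hJM.subset inter_subset_left
  have hJU' : N.Indep (J \ U) := hJN.subset sdiff_subset
  have hsub : J \ U ⊆ M.E \ U := sdiff_subset_sdiff_left hJM.subset_ground
  have h1 : (J ∩ U).encard ≤ M.eRk U := hJU.encard_le_eRk_of_subset inter_subset_right
  have h2 : (J \ U).encard ≤ N.eRk (M.E \ U) := hJU'.encard_le_eRk_of_subset hsub
  have h3 : (J \ U).encard + (J ∩ U).encard = j := by
    rw [encard_sdiff_add_encard_inter, hj]
  obtain ⟨h5, h6⟩ := arith_eq j _ _ _ _ (eRk_ne_top_of_finite M hfin U)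
    (eRk_ne_top_of_finite N hfinN (M.E \ U)) h1 h2 h3 hlt
  refine ⟨U, hU, ?_, ?_⟩
  · have hb : M.IsBasis (J ∩ U) U :=
      hJU.isBasis_of_eRk_ge (hJfin.subset inter_subset_left) inter_subset_right
        (by rwa [hJU.eRk_eq_encard]) hU
    exact hb.subset_closure
  · have hb : N.IsBasis (J \ U) (M.E \ U) :=
      hJU'.isBasis_of_eRk_ge (hJfin.subset sdiff_subset) hsub
        (by rwa [hJU'.eRk_eq_encard]) (hE ▸ sdiff_subset)
    exact hb.subset_closure

/-- Main theorem: if the common independent sets of `M` and `N` have bounded size, then the pair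
satisfies intersection. -/
theorem main (M N : Matroid α) (hE : M.E = N.E) (r : ℕ)
    (hr : ∀ I : Set α, M.Indep I → N.Indep I → I.encard ≤ r) :
    ∃ JM JN : Set α, Disjoint JM JN ∧ M.Indep (JM ∪ JN) ∧ N.Indep (JM ∪ JN) ∧
      M.closure JM ∪ N.closure JN = M.E := by
  -- a maximum common independent set
  obtain ⟨J, hJM, hJN, hmax⟩ : ∃ J, M.Indep J ∧ N.Indep J ∧
      ∀ I, M.Indep I → N.Indep I → I.encard ≤ J.encard := by
    let S : Set ℕ := {n | ∃ I, M.Indep I ∧ N.Indep I ∧ I.encard = n}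
    have hS0 : S.Nonempty := ⟨0, ∅, M.empty_indep, N.empty_indep, by simp⟩
    have hSb : BddAbove S := by
      refine ⟨r, ?_⟩
      rintro n ⟨I, hIM, hIN, hn⟩
      have h1 := hr I hIM hIN
      rw [hn] at h1
      exact_mod_cast h1
    obtain ⟨J, hJM, hJN, hJ⟩ := Nat.sSup_mem hS0 hSb
    refine ⟨J, hJM, hJN, fun I hIM hIN => ?_⟩
    have hIr := hr I hIM hIN
    obtain ⟨m, hm⟩ : ∃ m : ℕ, I.encard = m :=
      ⟨I.encard.toNat, (ENat.natCast_toNat (ne_top_of_le_ne_top (ENat.natCast_ne_top r) hIr)).symm⟩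
    have h1 : m ≤ sSup S := le_csSup hSb ⟨I, hIM, hIN, hm⟩
    rw [hJ, hm]
    exact_mod_cast h1
  have hJfin : J.Finite := finite_of_encard_le_coe (hr J hJM hJN)
  by_contra hcon
  have hex : ∀ A : Set α, A ⊆ J →
      ∃ e, e ∈ M.E ∧ e ∉ M.closure A ∧ e ∉ N.closure (J \ A) := by
    intro A hA
    by_contra hno
    push Not at hno
    apply hcon
    have hAJ : A ∪ J \ A = J := union_sdiff_cancel hA
    refine ⟨A, J \ A, disjoint_sdiff_right, ?_, ?_, ?_⟩
    · rwa [hAJ]
    · rwa [hAJ]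
    · apply Subset.antisymm
      · exact union_subset (M.closure_subset_ground A) (hE ▸ N.closure_subset_ground _)
      · intro e he
        by_contra hne
        rw [mem_union, not_or] at hne
        exact hne.2 (hno e he hne.1)
  have : Nonempty α := (hex ∅ (empty_subset J)).nonempty
  choose! f hf using hex
  have hE0fin : (J ∪ f '' {A | A ⊆ J}).Finite := hJfin.union (hJfin.finite_subsets.image f)
  have hE0M : J ∪ f '' {A | A ⊆ J} ⊆ M.E := by
    refine union_subset hJM.subset_ground ?_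
    rintro _ ⟨A, hA, rfl⟩
    exact (hf A hA).1
  have hE0N : J ∪ f '' {A | A ⊆ J} ⊆ N.E := hE ▸ hE0M
  obtain ⟨U, hU, hU1, hU2⟩ := finite_cover (M ↾ (J ∪ f '' {A | A ⊆ J}))
    (N ↾ (J ∪ f '' {A | A ⊆ J})) rfl hE0fin J
    (Matroid.restrict_indep_iff.2 ⟨hJM, subset_union_left⟩)
    (Matroid.restrict_indep_iff.2 ⟨hJN, subset_union_left⟩)
    (fun I hIM hIN => hmax I (Matroid.restrict_indep_iff.1 hIM).1
      (Matroid.restrict_indep_iff.1 hIN).1)
  have hfA := hf (J ∩ U) inter_subset_left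
  have hfE0 : f (J ∩ U) ∈ J ∪ f '' {A | A ⊆ J} := Or.inr ⟨J ∩ U, inter_subset_left, rfl⟩
  by_cases hfu : f (J ∩ U) ∈ U
  · have h1 := hU1 hfu
    rw [M.restrict_closure_eq (inter_subset_left.trans subset_union_left) hE0M] at h1
    exact hfA.2.1 h1.1
  · have h1 := hU2 ⟨hfE0, hfu⟩
    rw [N.restrict_closure_eq (sdiff_subset.trans subset_union_left) hE0N] at h1
    have h2 : J \ (J ∩ U) = J \ U := by
      ext x
      simp only [mem_sdiff, mem_inter_iff]
      tauto
    exact hfA.2.2 (h2 ▸ h1.1)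

/-- A matroid of finite rank has independent sets of bounded size. -/
lemma bounded_of_rankFinite (M : Matroid α) (hM : M.RankFinite) :
    ∃ r : ℕ, ∀ I : Set α, M.Indep I → I.encard ≤ r := by
  have htop : M.eRank ≠ ⊤ := M.eRank_ne_top_iff.2 hM
  refine ⟨M.eRank.toNat, fun I hI => ?_⟩
  rw [ENat.natCast_toNat htop]
  exact hI.encard_le_eRank

/-- **Matroid intersection for pairs with bounded common independent sets.**
Let `M` and `N` be matroids (in the sense of Bruhn, Diestel, Kriesell, Pendavingh and Wollan; no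
finiteness or finitarity assumption) on a common ground set of arbitrary cardinality.  If `M` has
finite rank, or `N` has finite rank, or more generally the sets independent in both matroids have
bounded size, then the pair satisfies intersection: there are disjoint sets `JM`, `JN` whose union
is independent in both matroids and such that the `M`-closure of `JM` together with the
`N`-closure of `JN` is the whole ground set. -/
theorem result {α : Type*} (M N : Matroid α) (hE : M.E = N.E)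
    (h : M.RankFinite ∨ N.RankFinite ∨
      ∃ r : ℕ, ∀ I : Set α, M.Indep I → N.Indep I → I.encard ≤ r) :
    ∃ JM JN : Set α, Disjoint JM JN ∧ M.Indep (JM ∪ JN) ∧ N.Indep (JM ∪ JN) ∧
      M.closure JM ∪ N.closure JN = M.E := by
  rcases h with hM | hN | ⟨r, hr⟩
  · obtain ⟨r, hr⟩ := bounded_of_rankFinite M hM
    exact main M N hE r (fun I hIM _ => hr I hIM)
  · obtain ⟨r, hr⟩ := bounded_of_rankFinite N hN
    exact main M N hE r (fun I _ hIN => hr I hIN)
  · exact main M N hE r hr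

end Vale.Agent.Results.P068.FiniteRank
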