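import Mathlib
import Vale.Agent.Results.P068.FiniteRank

namespace Vale.Agent.Results.P068.FiniteDefect

open Set Matroid

variable {α : Type*}

/-- One arc of the exchange graph of a common independent set `J` of `M` and `N`:
from `v ∉ J` to `w ∈ J` if `J - w + v` is independent in `N`, and from `v ∈ J` to `w ∉ J` if
`J - v + w` is independent in `M`. -/
def Step (M N : Matroid α) (J : Set α) (v w : α) : Prop :=
  (v ∉ J ∧ w ∈ J ∧ N.Indep (insert v J \ {w})) ∨ (v ∈ J ∧ w ∉ J ∧ M.Indep (insert w J \ {v}))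

/-- `v` reaches a sink, i.e. an element `t ∉ J` with `J + t` independent in `N`. -/
def Reach (M N : Matroid α) (J : Set α) (v : α) : Prop :=
  ∃ t, Relation.ReflTransGen (Step M N J) v t ∧ t ∉ J ∧ N.Indep (insert t J)

/-- If no source (an element `x ∉ J` with `J + x` independent in `M`) reaches a sink, then the
set `U` of elements reaching a sink gives an exact certificate. -/
theorem cover_of_no_aug (M N : Matroid α) (hE : M.E = N.E) (J : Set α) (hJM : M.Indep J)
    (hJN : N.Indep J) (hno : ∀ x, x ∉ J → M.Indep (insert x J) → ¬ Reach M N J x) :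
    M.E ⊆ M.closure (J ∩ {v | Reach M N J v}) ∪ N.closure (J \ {v | Reach M N J v}) := by
  intro x hx
  by_cases hxJ : x ∈ J
  · by_cases hxU : Reach M N J x
    · left
      exact M.subset_closure _ (inter_subset_left.trans hJM.subset_ground) ⟨hxJ, hxU⟩
    · right
      exact N.subset_closure _ (sdiff_subset.trans hJN.subset_ground) ⟨hxJ, hxU⟩
  · by_cases hxU : Reach M N J x
    · left
      have hdep : ¬ M.Indep (insert x J) := fun h => hno x hxJ h hxU
      have hcl : x ∈ M.closure J := hJM.mem_closure_iff'.2 ⟨hx, fun h => absurd h hdep⟩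
      have hC := hJM.fundCircuit_isCircuit hcl hxJ
      have hmem := hC.mem_closure_sdiff_singleton_of_mem (M.mem_fundCircuit x J)
      refine M.closure_subset_closure ?_ hmem
      rintro y ⟨hyC, hyx⟩
      have hyJ : y ∈ J := (M.fundCircuit_subset_insert x J hyC).resolve_left hyx
      refine ⟨hyJ, ?_⟩
      have hind : M.Indep (insert x J \ {y}) := (hJM.mem_fundCircuit_iff hcl hxJ).1 hyC
      obtain ⟨t, hpath, ht⟩ := hxU
      exact ⟨t, Relation.ReflTransGen.head (Or.inr ⟨hyJ, hxJ, hind⟩) hpath, ht⟩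
    · right
      have hdep : ¬ N.Indep (insert x J) :=
        fun h => hxU ⟨x, Relation.ReflTransGen.refl, hxJ, h⟩
      have hxN : x ∈ N.E := hE ▸ hx
      have hcl : x ∈ N.closure J := hJN.mem_closure_iff'.2 ⟨hxN, fun h => absurd h hdep⟩
      have hC := hJN.fundCircuit_isCircuit hcl hxJ
      have hmem := hC.mem_closure_sdiff_singleton_of_mem (N.mem_fundCircuit x J)
      refine N.closure_subset_closure ?_ hmem
      rintro y ⟨hyC, hyx⟩
      have hyJ : y ∈ J := (N.fundCircuit_subset_insert x J hyC).resolve_left hyx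
      refine ⟨hyJ, fun hyU => hxU ?_⟩
      have hind : N.Indep (insert x J \ {y}) := (hJN.mem_fundCircuit_iff hcl hxJ).1 hyC
      obtain ⟨t, hpath, ht⟩ := hyU
      exact ⟨t, Relation.ReflTransGen.head (Or.inl ⟨hxJ, hyJ, hind⟩) hpath, ht⟩

/-- Finite augmentation lemma: for matroids on a common finite ground set, if some source
reaches a sink in the exchange graph of the common independent set `Y`, then `Y` is not a
maximum common independent set. -/
theorem exists_larger_of_reach (M N : Matroid α) (hE : M.E = N.E) (hfin : M.E.Finite)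
    (Y : Set α) (hYM : M.Indep Y) (hYN : N.Indep Y) (x : α) (hxY : x ∉ Y)
    (hx : M.Indep (insert x Y)) (hreach : Reach M N Y x) :
    ∃ L, M.Indep L ∧ N.Indep L ∧ Y.encard < L.encard := by
  by_contra hcon
  push Not at hcon
  obtain ⟨U, hU, hU1, hU2⟩ := FiniteRank.finite_cover M N hE hfin Y hYM hYN hcon
  have key : ∀ v, Reach M N Y v → v ∈ U := by
    rintro v ⟨t, hpath, htY, ht⟩
    induction hpath using Relation.ReflTransGen.head_induction_on with
    | refl =>
      by_contra htU
      have htN : t ∈ N.E := ht.subset_ground (mem_insert t Y)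
      have h1 : t ∈ N.closure (Y \ U) := hU2 ⟨hE ▸ htN, htU⟩
      have h2 : t ∈ N.closure Y := N.closure_subset_closure sdiff_subset h1
      exact ((hYN.notMem_closure_iff_of_notMem htY htN).2 ht) h2
    | @head a c hstep hpath ih =>
      rcases hstep with ⟨haY, hcY, hind⟩ | ⟨haY, hcY, hind⟩
      · by_contra haU
        have hne : a ≠ c := fun h => haY (h ▸ hcY)
        have haN : a ∈ N.E := hind.subset_ground ⟨mem_insert a Y, hne⟩
        have h1 : a ∈ N.closure (Y \ U) := hU2 ⟨hE ▸ haN, haU⟩
        have hsub : Y \ U ⊆ Y \ {c} := by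
          intro z hz
          refine ⟨hz.1, ?_⟩
          rintro rfl
          exact hz.2 ih
        have h2 : a ∈ N.closure (Y \ {c}) := N.closure_subset_closure hsub h1
        have h3 : N.Indep (insert a (Y \ {c})) := by
          rwa [insert_sdiff_singleton_comm hne]
        exact ((hYN.subset sdiff_subset).notMem_closure_iff_of_notMem
          (fun h => haY h.1) haN).2 h3 h2
      · by_contra haU
        have hne : c ≠ a := fun h => hcY (h ▸ haY)
        have hcM : c ∈ M.E := hind.subset_ground ⟨mem_insert c Y, hne⟩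
        have h1 : c ∈ M.closure (Y ∩ U) := hU1 ih
        have hsub : Y ∩ U ⊆ Y \ {a} := by
          intro z hz
          refine ⟨hz.1, ?_⟩
          rintro rfl
          exact haU hz.2
        have h2 : c ∈ M.closure (Y \ {a}) := M.closure_subset_closure hsub h1
        have h3 : M.Indep (insert c (Y \ {a})) := by
          rwa [insert_sdiff_singleton_comm hne]
        exact ((hYM.subset sdiff_subset).notMem_closure_iff_of_notMem
          (fun h => hcY h.1) hcM).2 h3 h2
  have hxU := key x hreach
  have h1 : x ∈ M.closure Y := M.closure_subset_closure inter_subset_left (hU1 hxU)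
  have hxE : x ∈ M.E := hx.subset_ground (mem_insert x Y)
  exact ((hYM.notMem_closure_iff_of_notMem hxY hxE).2 hx) h1

/-- Independence in the finite minor `(M ／ (J \ V)) ↾ V`. -/
lemma minor_indep (M : Matroid α) (J V T : Set α) (hJ : M.Indep J) (hT : T ⊆ V) :
    ((M ／ (J \ V)) ↾ V).Indep T ↔ M.Indep (T ∪ (J \ V)) := by
  rw [restrict_indep_iff, (hJ.subset sdiff_subset).contract_indep_iff]
  constructor
  · rintro ⟨⟨_, h⟩, _⟩
    exact h
  · intro h
    exact ⟨⟨disjoint_sdiff_right.mono_left hT, h⟩, hT⟩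

/-- An arc of the exchange graph of `J` between two elements of `V` is an arc of the exchange
graph of `J ∩ V` in the minors. -/
lemma step_minor (M N : Matroid α) (J V : Set α) (hJM : M.Indep J) (hJN : N.Indep J) (v w : α)
    (hv : v ∈ V) (hw : w ∈ V) (h : Step M N J v w) :
    Step ((M ／ (J \ V)) ↾ V) ((N ／ (J \ V)) ↾ V) (J ∩ V) v w := by
  rcases h with ⟨hvJ, hwJ, hind⟩ | ⟨hvJ, hwJ, hind⟩
  · refine Or.inl ⟨fun h => hvJ h.1, ⟨hwJ, hw⟩, ?_⟩
    have hsub : insert v (J ∩ V) \ {w} ⊆ V := by
      rintro z ⟨rfl | hz, _⟩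
      · exact hv
      · exact hz.2
    rw [minor_indep N J V _ hJN hsub]
    have heq : (insert v (J ∩ V) \ {w}) ∪ (J \ V) = insert v J \ {w} := by
      ext z
      simp only [mem_union, mem_sdiff, mem_insert_iff, mem_inter_iff, mem_singleton_iff]
      constructor
      · rintro (⟨rfl | ⟨hz, _⟩, hzw⟩ | ⟨hz, hzV⟩)
        · exact ⟨Or.inl rfl, hzw⟩
        · exact ⟨Or.inr hz, hzw⟩
        · refine ⟨Or.inr hz, ?_⟩
          rintro rfl
          exact hzV hw
      · rintro ⟨rfl | hz, hzw⟩
        · exact Or.inl ⟨Or.inl rfl, hzw⟩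
        · by_cases hzV : z ∈ V
          · exact Or.inl ⟨Or.inr ⟨hz, hzV⟩, hzw⟩
          · exact Or.inr ⟨hz, hzV⟩
    rwa [heq]
  · refine Or.inr ⟨⟨hvJ, hv⟩, fun h => hwJ h.1, ?_⟩
    have hsub : insert w (J ∩ V) \ {v} ⊆ V := by
      rintro z ⟨rfl | hz, _⟩
      · exact hw
      · exact hz.2
    rw [minor_indep M J V _ hJM hsub]
    have heq : (insert w (J ∩ V) \ {v}) ∪ (J \ V) = insert w J \ {v} := by
      ext z
      simp only [mem_union, mem_sdiff, mem_insert_iff, mem_inter_iff, mem_singleton_iff]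
      constructor
      · rintro (⟨rfl | ⟨hz, _⟩, hzv⟩ | ⟨hz, hzV⟩)
        · exact ⟨Or.inl rfl, hzv⟩
        · exact ⟨Or.inr hz, hzv⟩
        · refine ⟨Or.inr hz, ?_⟩
          rintro rfl
          exact hzV hv
      · rintro ⟨rfl | hz, hzv⟩
        · exact Or.inl ⟨Or.inl rfl, hzv⟩
        · by_cases hzV : z ∈ V
          · exact Or.inl ⟨Or.inr ⟨hz, hzV⟩, hzv⟩
          · exact Or.inr ⟨hz, hzV⟩
    rwa [heq]

/-- `insert t (J ∩ V) ∪ (J \ V) = insert t J`. -/
lemma insert_inter_union_sdiff (J V : Set α) (t : α) :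
    insert t (J ∩ V) ∪ (J \ V) = insert t J := by
  ext z
  simp only [mem_union, mem_sdiff, mem_insert_iff, mem_inter_iff]
  constructor
  · rintro ((rfl | ⟨hz, _⟩) | ⟨hz, _⟩)
    · exact Or.inl rfl
    · exact Or.inr hz
    · exact Or.inr hz
  · rintro (rfl | hz)
    · exact Or.inl (Or.inl rfl)
    · by_cases hzV : z ∈ V
      · exact Or.inl (Or.inr ⟨hz, hzV⟩)
      · exact Or.inr ⟨hz, hzV⟩

/-- A path in the exchange graph of `J` lives in the exchange graph of `J ∩ V'` in the minors on
every set `V'` containing a suitable finite set `V`. -/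
lemma path_minor (M N : Matroid α) (J : Set α) (hJM : M.Indep J) (hJN : N.Indep J) (a t : α)
    (h : Relation.ReflTransGen (Step M N J) a t) :
    ∃ V : Set α, V.Finite ∧ a ∈ V ∧ t ∈ V ∧ ∀ V' : Set α, V ⊆ V' →
      Relation.ReflTransGen
        (Step ((M ／ (J \ V')) ↾ V') ((N ／ (J \ V')) ↾ V') (J ∩ V')) a t := by
  induction h using Relation.ReflTransGen.head_induction_on with
  | refl =>
    exact ⟨{t}, finite_singleton t, rfl, rfl, fun V' _ => Relation.ReflTransGen.refl⟩
  | @head a c hstep hpath ih =>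
    obtain ⟨V, hVfin, hcV, htV, hV⟩ := ih
    refine ⟨insert a V, hVfin.insert a, mem_insert a V, mem_insert_of_mem a htV,
      fun V' hV' => ?_⟩
    have haV' : a ∈ V' := hV' (mem_insert a V)
    have hcV' : c ∈ V' := hV' (mem_insert_of_mem a hcV)
    exact Relation.ReflTransGen.head (step_minor M N J V' hJM hJN a c haV' hcV' hstep)
      (hV V' ((subset_insert a V).trans hV'))

/-- Augmentation: if a source reaches a sink in the exchange graph of the common independent set
`J` (of any size), then a finite exchange produces a common independent set `J₁` which gains more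
elements than it loses. -/
theorem exists_exchange (M N : Matroid α) (J : Set α) (hJM : M.Indep J)
    (hJN : N.Indep J) (x : α) (hxJ : x ∉ J) (hx : M.Indep (insert x J))
    (hreach : Reach M N J x) :
    ∃ J₁, M.Indep J₁ ∧ N.Indep J₁ ∧ (J₁ \ J).Finite ∧ (J \ J₁).Finite ∧
      (J \ J₁).encard < (J₁ \ J).encard := by
  obtain ⟨t, hpath, htJ, ht⟩ := hreach
  obtain ⟨V, hVfin, hxV, htV, hV⟩ := path_minor M N J hJM hJN x t hpath
  have hpath' := hV V Subset.rfl
  have hYM : ((M ／ (J \ V)) ↾ V).Indep (J ∩ V) := by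
    rw [minor_indep M J V _ hJM inter_subset_right, inter_union_sdiff]
    exact hJM
  have hYN : ((N ／ (J \ V)) ↾ V).Indep (J ∩ V) := by
    rw [minor_indep N J V _ hJN inter_subset_right, inter_union_sdiff]
    exact hJN
  have hsrc : ((M ／ (J \ V)) ↾ V).Indep (insert x (J ∩ V)) := by
    rw [minor_indep M J V _ hJM (insert_subset hxV inter_subset_right),
      insert_inter_union_sdiff]
    exact hx
  have hsink : ((N ／ (J \ V)) ↾ V).Indep (insert t (J ∩ V)) := by
    rw [minor_indep N J V _ hJN (insert_subset htV inter_subset_right),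
      insert_inter_union_sdiff]
    exact ht
  obtain ⟨L, hLM, hLN, hlt⟩ := exists_larger_of_reach ((M ／ (J \ V)) ↾ V)
    ((N ／ (J \ V)) ↾ V) rfl hVfin (J ∩ V) hYM hYN x (fun h => hxJ h.1) hsrc
    ⟨t, hpath', fun h => htJ h.1, hsink⟩
  have hLV : L ⊆ V := (restrict_indep_iff.1 hLM).2
  rw [minor_indep M J V L hJM hLV] at hLM
  rw [minor_indep N J V L hJN hLV] at hLN
  have h1 : (L ∪ (J \ V)) \ J = L \ (J ∩ V) := by
    ext z
    simp only [mem_union, mem_sdiff, mem_inter_iff]
    constructor
    · rintro ⟨hz | ⟨hz, _⟩, hzJ⟩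
      · exact ⟨hz, fun h => hzJ h.1⟩
      · exact absurd hz hzJ
    · rintro ⟨hz, hzJ⟩
      exact ⟨Or.inl hz, fun h => hzJ ⟨h, hLV hz⟩⟩
  have h2 : J \ (L ∪ (J \ V)) = (J ∩ V) \ L := by
    ext z
    simp only [mem_union, mem_sdiff, mem_inter_iff]
    constructor
    · rintro ⟨hz, hzn⟩
      refine ⟨⟨hz, ?_⟩, fun h => hzn (Or.inl h)⟩
      by_contra hzV
      exact hzn (Or.inr ⟨hz, hzV⟩)
    · rintro ⟨⟨hz, hzV⟩, hzL⟩
      refine ⟨hz, ?_⟩
      rintro (h | ⟨_, h⟩)
      · exact hzL h
      · exact h hzV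
  refine ⟨L ∪ (J \ V), hLM, hLN, ?_, ?_, ?_⟩
  · rw [h1]
    exact (hVfin.subset hLV).subset sdiff_subset
  · rw [h2]
    exact (hVfin.subset inter_subset_right).subset sdiff_subset
  · rw [h1, h2]
    have e1 := encard_sdiff_add_encard_inter (J ∩ V) L
    have e2 := encard_sdiff_add_encard_inter L (J ∩ V)
    rw [inter_comm L (J ∩ V)] at e2
    have hfinI : ((J ∩ V) ∩ L).encard ≠ ⊤ :=
      encard_ne_top_iff.2 ((hVfin.subset hLV).subset inter_subset_right)
    rw [← e1, ← e2] at hlt
    exact (ENat.add_lt_add_iff_right hfinI).1 hlt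

/-- Contracting an independent set lowers the rank by its size. -/
lemma eRank_contract_add (K : Matroid α) (T : Set α) (hT : K.Indep T) :
    (K ／ T).eRank + T.encard = K.eRank := by
  obtain ⟨B, hB⟩ := (K ／ T).exists_isBase
  have h := hT.contract_isBase_iff.1 hB
  rw [← hB.encard_eq_eRank, ← h.1.encard_eq_eRank, encard_union_eq h.2]

/-- Exchange identity for the defect `(K ／ A).eRank` of an independent set `A`. -/
lemma defect_exchange (K : Matroid α) (A A' : Set α) (hA : K.Indep A) (hA' : K.Indep A') :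
    (K ／ A).eRank + (A \ A').encard = (K ／ A').eRank + (A' \ A).encard := by
  have key : ∀ B B' : Set α, K.Indep B →
      (K ／ B).eRank + (B \ B').encard = (K ／ (B ∩ B')).eRank := by
    intro B B' hB
    have hS : K.Indep (B ∩ B') := hB.subset inter_subset_left
    have hu : (B \ B') ∪ (B ∩ B') = B := sdiff_union_inter B B'
    have hT : (K ／ (B ∩ B')).Indep (B \ B') := by
      rw [hS.contract_indep_iff, hu]
      exact ⟨disjoint_sdiff_left.mono_right inter_subset_right, hB⟩
    have h := eRank_contract_add (K ／ (B ∩ B')) (B \ B') hT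
    rwa [contract_contract, union_comm, hu] at h
  rw [key A A' hA, key A' A hA', inter_comm]

/-- The main induction.  `Φ` is a potential on common independent sets which obeys the exchange
identity; if it is finite at some common independent set, the pair satisfies intersection. -/
theorem main_aux (M N : Matroid α) (hE : M.E = N.E) (Φ : Set α → ℕ∞)
    (hΦ : ∀ J J₁ : Set α, M.Indep J → N.Indep J → M.Indep J₁ → N.Indep J₁ →
      Φ J + (J \ J₁).encard = Φ J₁ + (J₁ \ J).encard) (n : ℕ) :
    ∀ J : Set α, M.Indep J → N.Indep J → Φ J = n →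
      ∃ JM JN : Set α, Disjoint JM JN ∧ M.Indep (JM ∪ JN) ∧ N.Indep (JM ∪ JN) ∧
        M.closure JM ∪ N.closure JN = M.E := by
  induction n using Nat.strong_induction_on with
  | _ n ih =>
  intro J hJM hJN hn
  by_cases haug : ∃ x, x ∉ J ∧ M.Indep (insert x J) ∧ Reach M N J x
  · obtain ⟨x, hxJ, hx, hreach⟩ := haug
    obtain ⟨J₁, hM₁, hN₁, hf1, hf2, hlt⟩ := exists_exchange M N J hJM hJN x hxJ hx hreach
    have h := hΦ J J₁ hJM hJN hM₁ hN₁
    rw [hn] at h
    have hp : (J \ J₁).encard ≠ ⊤ := encard_ne_top_iff.2 hf2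
    have hq : (J₁ \ J).encard ≠ ⊤ := encard_ne_top_iff.2 hf1
    have hΦ₁ : Φ J₁ ≠ ⊤ := by
      intro htop
      rw [htop, top_add] at h
      rcases ENat.add_eq_top.1 h with h' | h'
      · exact ENat.natCast_ne_top n h'
      · exact hp h'
    obtain ⟨m, hm⟩ : ∃ m : ℕ, Φ J₁ = m := ⟨(Φ J₁).toNat, (ENat.natCast_toNat hΦ₁).symm⟩
    have hmn : m < n := by
      rw [hm] at h
      lift (J \ J₁).encard to ℕ using hp with p
      lift (J₁ \ J).encard to ℕ using hq with q
      norm_cast at h hlt
      omega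
    exact ih m hmn J₁ hM₁ hN₁ hm
  · push Not at haug
    have hcov := cover_of_no_aug M N hE J hJM hJN haug
    refine ⟨J ∩ {v | Reach M N J v}, J \ {v | Reach M N J v}, ?_, ?_, ?_, ?_⟩
    · exact disjoint_sdiff_right.mono_left inter_subset_right
    · rw [inter_union_sdiff]
      exact hJM
    · rw [inter_union_sdiff]
      exact hJN
    · exact Subset.antisymm
        (union_subset (M.closure_subset_ground _) (hE ▸ N.closure_subset_ground _)) hcov

/-- Rearrangement in a commutative monoid. -/
lemma arith4 (a b p q a₁ b₁ p₁ q₁ : ℕ∞) (e1 : a + p = a₁ + p₁) (e2 : b + q = b₁ + q₁) :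
    (a + b) + (q + p) = (a₁ + b₁) + (q₁ + p₁) := by
  calc (a + b) + (q + p) = (a + p) + (b + q) := by ac_rfl
    _ = (a₁ + p₁) + (b₁ + q₁) := by rw [e1, e2]
    _ = (a₁ + b₁) + (q₁ + p₁) := by ac_rfl

/-- The two-sided defect potential obeys the exchange identity. -/
lemma potential_exchange (M N : Matroid α) (X J J₁ : Set α)
    (hJM : M.Indep J) (hJN : N.Indep J) (hM₁ : M.Indep J₁) (hN₁ : N.Indep J₁) :
    (((M ↾ X) ／ (J ∩ X)).eRank + ((N ↾ (M.E \ X)) ／ (J \ X)).eRank) + (J \ J₁).encard =
    (((M ↾ X) ／ (J₁ ∩ X)).eRank + ((N ↾ (M.E \ X)) ／ (J₁ \ X)).eRank)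
      + (J₁ \ J).encard := by
  have hA : (M ↾ X).Indep (J ∩ X) :=
    restrict_indep_iff.2 ⟨hJM.subset inter_subset_left, inter_subset_right⟩
  have hA₁ : (M ↾ X).Indep (J₁ ∩ X) :=
    restrict_indep_iff.2 ⟨hM₁.subset inter_subset_left, inter_subset_right⟩
  have hB : (N ↾ (M.E \ X)).Indep (J \ X) :=
    restrict_indep_iff.2 ⟨hJN.subset sdiff_subset, sdiff_subset_sdiff_left hJM.subset_ground⟩
  have hB₁ : (N ↾ (M.E \ X)).Indep (J₁ \ X) :=
    restrict_indep_iff.2 ⟨hN₁.subset sdiff_subset, sdiff_subset_sdiff_left hM₁.subset_ground⟩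
  have e1 := defect_exchange (M ↾ X) (J ∩ X) (J₁ ∩ X) hA hA₁
  have e2 := defect_exchange (N ↾ (M.E \ X)) (J \ X) (J₁ \ X) hB hB₁
  have s1 : (J ∩ X) \ (J₁ ∩ X) = (J \ J₁) ∩ X := by
    ext z
    simp only [mem_sdiff, mem_inter_iff]
    tauto
  have s2 : (J \ X) \ (J₁ \ X) = (J \ J₁) \ X := by
    ext z
    simp only [mem_sdiff]
    tauto
  have s3 : (J₁ ∩ X) \ (J ∩ X) = (J₁ \ J) ∩ X := by
    ext z
    simp only [mem_sdiff, mem_inter_iff]
    tauto
  have s4 : (J₁ \ X) \ (J \ X) = (J₁ \ J) \ X := by
    ext z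
    simp only [mem_sdiff]
    tauto
  rw [s1, s3] at e1
  rw [s2, s4] at e2
  rw [← encard_sdiff_add_encard_inter (J \ J₁) X, ← encard_sdiff_add_encard_inter (J₁ \ J) X]
  exact arith4 _ _ _ _ _ _ _ _ e1 e2

/-- The pair `(M, N)` satisfies intersection: some common independent set splits into two parts
whose closures, in `M` and in `N` respectively, cover the ground set. -/
def SatisfiesIntersection (M N : Matroid α) : Prop :=
  ∃ JM JN : Set α, Disjoint JM JN ∧ M.Indep (JM ∪ JN) ∧ N.Indep (JM ∪ JN) ∧
    M.closure JM ∪ N.closure JN = M.E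

/-- Almost-certificates can be repaired: if some common independent set `J₀` and some set `X`
are such that `J₀ ∩ X` spans `X` in `M` up to finite rank and `J₀ \ X` spans the rest of the
ground set in `N` up to finite rank, then the pair satisfies intersection. -/
theorem almost (M N : Matroid α) (hE : M.E = N.E) (J₀ X : Set α) (hM : M.Indep J₀)
    (hN : N.Indep J₀) (h1 : ((M ↾ X) ／ (J₀ ∩ X)).RankFinite)
    (h2 : ((N ↾ (M.E \ X)) ／ (J₀ \ X)).RankFinite) : SatisfiesIntersection M N := by
  have t1 := (eRank_ne_top_iff _).2 h1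
  have t2 := (eRank_ne_top_iff _).2 h2
  have hfin : ((M ↾ X) ／ (J₀ ∩ X)).eRank + ((N ↾ (M.E \ X)) ／ (J₀ \ X)).eRank ≠ ⊤ := by
    intro h
    rcases ENat.add_eq_top.1 h with h' | h'
    · exact t1 h'
    · exact t2 h'
  exact main_aux M N hE
    (fun J => ((M ↾ X) ／ (J ∩ X)).eRank + ((N ↾ (M.E \ X)) ／ (J \ X)).eRank)
    (fun J J₁ a b c d => potential_exchange M N X J J₁ a b c d) _ J₀ hM hN
    (ENat.natCast_toNat hfin).symm

/-- If the ground set splits into a set `X` on which `N` has finite corank and a complement on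
which `N` has finite rank, then `N` satisfies intersection with every matroid `M`. -/
theorem of_restrict (M N : Matroid α) (hE : M.E = N.E) (X : Set α)
    (h1 : (N ↾ X)✶.RankFinite) (h2 : (N ↾ (N.E \ X)).RankFinite) :
    SatisfiesIntersection M N := by
  obtain ⟨B, hB⟩ := (N ↾ X).exists_isBase
  have hBX : B ⊆ X := hB.subset_ground
  have hBN : N.Indep B := (restrict_indep_iff.1 hB.indep).1
  have hBE : B ⊆ M.E := hE ▸ hBN.subset_ground
  obtain ⟨I, hI⟩ := M.exists_isBasis B hBE
  have hfinc : (X \ B).encard ≠ ⊤ := by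
    have h := hB.encard_compl_eq
    rw [restrict_ground_eq] at h
    rw [h]
    exact (eRank_ne_top_iff _).2 h1
  have hIX : I ⊆ X := hI.subset.trans hBX
  apply almost M N hE I X hI.indep (hBN.subset hI.subset)
  · rw [inter_eq_self_of_subset_left hIX, ← eRank_ne_top_iff]
    obtain ⟨T, hT⟩ := ((M ↾ X) ／ I).exists_isBase
    rw [← hT.encard_eq_eRank]
    have hIr : (M ↾ X).Indep I := restrict_indep_iff.2 ⟨hI.indep, hIX⟩
    have hTi := hIr.contract_indep_iff.1 hT.indep
    have hTI := restrict_indep_iff.1 hTi.2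
    have hsub : T ⊆ X \ B := by
      intro t ht
      refine ⟨hTI.2 (Or.inl ht), fun htB => ?_⟩
      have htI : t ∈ I := hI.mem_of_insert_indep htB
        (hTI.1.subset (insert_subset (Or.inl ht) subset_union_right))
      exact (disjoint_left.1 hTi.1) ht htI
    exact ne_top_of_le_ne_top hfinc (encard_le_encard hsub)
  · have h0 : I \ X = ∅ := sdiff_eq_empty.2 hIX
    rw [h0, contract_empty, hE]
    exact h2

/-- Satisfying intersection is symmetric in the two matroids. -/
lemma satisfies_symm (M N : Matroid α) (hE : M.E = N.E) (h : SatisfiesIntersection N M) :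
    SatisfiesIntersection M N := by
  obtain ⟨JN, JM, hd, hN, hM, hcl⟩ := h
  refine ⟨JM, JN, hd.symm, ?_, ?_, ?_⟩
  · rwa [union_comm]
  · rwa [union_comm]
  · rw [union_comm, hcl, hE]

/-- A matroid with empty ground set has finite rank. -/
lemma rankFinite_of_ground_empty (K : Matroid α) (h : K.E = ∅) : K.RankFinite := by
  rw [← eRank_ne_top_iff]
  have h1 := K.eRank_le_encard_ground
  rw [h, encard_empty] at h1
  exact ne_top_of_le_ne_top ENat.zero_ne_top h1

/-- Finite rank or finite corank of `N` suffices. -/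
theorem of_rank_or_corank (M N : Matroid α) (hE : M.E = N.E)
    (h : N.RankFinite ∨ N✶.RankFinite) : SatisfiesIntersection M N := by
  rcases h with h | h
  · refine of_restrict M N hE ∅ (rankFinite_of_ground_empty _ ?_) ?_
    · rw [dual_ground, restrict_ground_eq]
    · rw [sdiff_empty, restrict_ground_eq_self]
      exact h
  · refine of_restrict M N hE N.E ?_ (rankFinite_of_ground_empty _ ?_)
    · rw [restrict_ground_eq_self]
      exact h
    · rw [restrict_ground_eq, sdiff_self]

/-- Restricting a direct sum to the ground set of its second summand. -/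
lemma disjointSum_restrict_right (N₁ N₂ : Matroid α) (h : Disjoint N₁.E N₂.E) :
    (N₁.disjointSum N₂ h) ↾ N₂.E = N₂ := by
  refine ext_indep restrict_ground_eq (fun I hI => ?_)
  rw [restrict_ground_eq] at hI
  have h1 : I ∩ N₁.E = ∅ := by
    ext z
    simp only [mem_inter_iff, mem_empty_iff_false, iff_false, not_and]
    intro hz hz1
    exact (disjoint_left.1 h) hz1 (hI hz)
  rw [restrict_indep_iff, disjointSum_indep_iff, h1, inter_eq_self_of_subset_left hI]
  constructor
  · rintro ⟨⟨_, h2, _⟩, _⟩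
    exact h2
  · intro h2
    exact ⟨⟨N₁.empty_indep, h2, hI.trans subset_union_right⟩, hI⟩

/-- Intersection for an arbitrary matroid and the direct sum of a matroid of finite rank and a
matroid of finite corank. -/
theorem of_disjointSum (M N₁ N₂ : Matroid α) (h : Disjoint N₁.E N₂.E)
    (hE : M.E = (N₁.disjointSum N₂ h).E) (h1 : N₁.RankFinite) (h2 : N₂✶.RankFinite) :
    SatisfiesIntersection M (N₁.disjointSum N₂ h) := by
  refine of_restrict M _ hE N₂.E ?_ ?_
  · rw [disjointSum_restrict_right]
    exact h2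
  · have hg : (N₁.disjointSum N₂ h).E \ N₂.E = N₁.E := by
      rw [disjointSum_ground_eq]
      ext z
      simp only [mem_sdiff, mem_union]
      constructor
      · rintro ⟨hz | hz, hz2⟩
        · exact hz
        · exact absurd hz hz2
      · intro hz
        exact ⟨Or.inl hz, fun hz2 => (disjoint_left.1 h) hz hz2⟩
    rw [hg, disjointSum_comm, disjointSum_restrict_right]
    exact h1

/-- **Matroid intersection for pairs with an almost-certificate.**
Let `M` and `N` be matroids (Bruhn-Diestel-Kriesell-Pendavingh-Wollan axioms, nothing assumed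
about finiteness or finitarity) on a common ground set of arbitrary cardinality.
1. If some common independent set `J₀` and some set `X` are such that `J₀ ∩ X` spans `X` in `M`
   up to finite rank (the contraction of `M ↾ X` by `J₀ ∩ X` has finite rank) and `J₀ \ X` spans
   the rest of the ground set in `N` up to finite rank, then `(M, N)` satisfies intersection.
2. If `N` has finite corank on some set `X` and finite rank on the complement of `X`, then
   `(M, N)` satisfies intersection.
3. If one of `M`, `N` has finite rank or finite corank, then `(M, N)` satisfies intersection.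
4. If `N` is the direct sum of a matroid of finite rank and a matroid of finite corank, then
   `(M, N)` satisfies intersection. -/
theorem result {α : Type*} (M N : Matroid α) (hE : M.E = N.E) :
    ((∃ J₀ X : Set α, M.Indep J₀ ∧ N.Indep J₀ ∧ ((M ↾ X) ／ (J₀ ∩ X)).RankFinite ∧
        ((N ↾ (M.E \ X)) ／ (J₀ \ X)).RankFinite) → SatisfiesIntersection M N) ∧
    ((∃ X : Set α, (N ↾ X)✶.RankFinite ∧ (N ↾ (N.E \ X)).RankFinite) →
      SatisfiesIntersection M N) ∧
    ((M.RankFinite ∨ N.RankFinite ∨ M✶.RankFinite ∨ N✶.RankFinite) →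
      SatisfiesIntersection M N) ∧
    (∀ (N₁ N₂ : Matroid α) (h : Disjoint N₁.E N₂.E), N = N₁.disjointSum N₂ h →
      N₁.RankFinite → N₂✶.RankFinite → SatisfiesIntersection M N) := by
  refine ⟨?_, ?_, ?_, ?_⟩
  · rintro ⟨J₀, X, hM, hN, h1, h2⟩
    exact almost M N hE J₀ X hM hN h1 h2
  · rintro ⟨X, h1, h2⟩
    exact of_restrict M N hE X h1 h2
  · rintro (h | h | h | h)
    · exact satisfies_symm M N hE (of_rank_or_corank N M hE.symm (Or.inl h))
    · exact of_rank_or_corank M N hE (Or.inl h)
    · exact satisfies_symm M N hE (of_rank_or_corank N M hE.symm (Or.inr h))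
    · exact of_rank_or_corank M N hE (Or.inr h)
  · rintro N₁ N₂ h rfl h1 h2
    exact of_disjointSum M N₁ N₂ h hE h1 h2

end Vale.Agent.Results.P068.FiniteDefect
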