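import Mathlib
import Vale.Agent.Results.P068.FiniteDefect

namespace Vale.Agent.Results.P068.PackingCovering

open Set Matroid

/-- A packing/covering partition for the family `M i` of matroids on the common ground set `E`:
a partition `E = P ∪ C`, pairwise disjoint sets `S i ⊆ P` each spanning `P` in `M i ↾ P`, and sets
`I i ⊆ C`, each independent in the contraction `((M i)✶ ↾ C)✶` of `M i` onto `C`, whose union
is `C`. -/
def HasPackingCovering {α ι : Type*} (M : ι → Matroid α) (E : Set α) : Prop :=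
  ∃ (P C : Set α) (S I : ι → Set α),
    Disjoint P C ∧ P ∪ C = E ∧
    (∀ i, S i ⊆ P) ∧ (∀ i j, i ≠ j → Disjoint (S i) (S j)) ∧
    (∀ i, ((M i) ↾ P).closure (S i) = P) ∧
    (∀ i, I i ⊆ C) ∧ (∀ i, (((M i)✶ ↾ C)✶).Indep (I i)) ∧ (⋃ i, I i) = C

variable {α ι : Type*}

/-- The ground sets of the sum and of the partition matroid agree. -/
lemma ground_eq (M : ι → Matroid α) (E : Set α) (hE : ∀ i, (M i).E = E) :
    ((Matroid.freeOn E).comap Prod.snd : Matroid (ι × α)).E = (Matroid.sum' M).E := by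
  ext x
  simp only [comap_ground_eq, freeOn_ground, mem_preimage, sum'_ground_eq, mem_iUnion,
    mem_image]
  constructor
  · intro hx
    exact ⟨x.1, x.2, (hE x.1).symm ▸ hx, rfl⟩
  · rintro ⟨i, e, he, rfl⟩
    exact (hE i) ▸ he

/-- Independence in the partition matroid. -/
lemma part_indep_iff (E : Set α) (T : Set (ι × α)) :
    ((Matroid.freeOn E).comap Prod.snd : Matroid (ι × α)).Indep T ↔
      Prod.snd '' T ⊆ E ∧ InjOn Prod.snd T := by
  rw [comap_indep_iff, freeOn_indep_iff]

/-- The part of the sum lying over finite-rank members has finite rank. -/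
lemma sum_restrict_rankFinite [Finite ι] (M : ι → Matroid α) (X' : Set (ι × α))
    (hX' : ∀ x ∈ X', (M x.1).RankFinite) : ((Matroid.sum' M) ↾ X').RankFinite := by
  obtain ⟨T, hT⟩ := ((Matroid.sum' M) ↾ X').exists_isBase
  refine hT.rankFinite_of_finite ?_
  have hTi := restrict_indep_iff.1 hT.indep
  have hsl := sum'_indep_iff.1 hTi.1
  have hsub : T ⊆ ⋃ i, Prod.mk i '' (Prod.mk i ⁻¹' T) := by
    intro x hx
    exact mem_iUnion.2 ⟨x.1, x.2, hx, rfl⟩
  refine (finite_iUnion (fun i => ?_)).subset hsub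
  by_cases hne : (Prod.mk i ⁻¹' T).Nonempty
  · obtain ⟨e, he⟩ := hne
    have hrf : (M i).RankFinite := hX' (i, e) (hTi.2 he)
    exact ((hsl i).finite).image _
  · rw [not_nonempty_iff_eq_empty] at hne
    rw [hne, image_empty]
    exact finite_empty

/-- The part of the sum lying over finite-corank members has finite corank. -/
lemma sum_restrict_dual_rankFinite [Finite ι] (M : ι → Matroid α) (E : Set α)
    (hE : ∀ i, (M i).E = E) (K : Set ι) (hK : ∀ i ∈ K, (M i)✶.RankFinite) :
    ((Matroid.sum' M) ↾ {x : ι × α | x.1 ∈ K ∧ x.2 ∈ E})✶.RankFinite := by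
  have hex : ∀ i, ∃ B, (M i).IsBase B := fun i => (M i).exists_isBase
  choose Bf hBf using hex
  have hXE : {x : ι × α | x.1 ∈ K ∧ x.2 ∈ E} ⊆ (Matroid.sum' M).E := by
    intro x hx
    rw [sum'_ground_eq]
    exact mem_iUnion.2 ⟨x.1, x.2, (hE x.1).symm ▸ hx.2, rfl⟩
  have hbase : ((Matroid.sum' M) ↾ {x : ι × α | x.1 ∈ K ∧ x.2 ∈ E}).IsBase
      {x : ι × α | x.1 ∈ K ∧ x.2 ∈ Bf x.1} := by
    rw [isBase_restrict_iff hXE, sum'_isBasis_iff]
    intro i
    by_cases hi : i ∈ K
    · have e1 : Prod.mk i ⁻¹' {x : ι × α | x.1 ∈ K ∧ x.2 ∈ Bf x.1} = Bf i := by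
        ext e
        simp [hi]
      have e2 : Prod.mk i ⁻¹' {x : ι × α | x.1 ∈ K ∧ x.2 ∈ E} = (M i).E := by
        ext e
        simp [hi, hE]
      rw [e1, e2]
      exact (hBf i).isBasis_ground
    · have e1 : Prod.mk i ⁻¹' {x : ι × α | x.1 ∈ K ∧ x.2 ∈ Bf x.1} = ∅ := by
        ext e
        simp [hi]
      have e2 : Prod.mk i ⁻¹' {x : ι × α | x.1 ∈ K ∧ x.2 ∈ E} = ∅ := by
        ext e
        simp [hi]
      rw [e1, e2]
      exact (M i).empty_indep.isBasis_self
  rw [← eRank_ne_top_iff, ← hbase.encard_compl_eq, restrict_ground_eq, encard_ne_top_iff]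
  have hfin : ∀ i, (Prod.mk i '' {e : α | i ∈ K ∧ e ∈ E ∧ e ∉ Bf i}).Finite := by
    intro i
    refine Finite.image _ ?_
    by_cases hi : i ∈ K
    · have h1 := (hBf i).encard_compl_eq
      have h2 := (eRank_ne_top_iff _).2 (hK i hi)
      rw [← h1, encard_ne_top_iff, hE i] at h2
      exact h2.subset (fun e he => ⟨he.2.1, he.2.2⟩)
    · exact finite_empty.subset (fun e he => absurd he.1 hi)
  refine (finite_iUnion hfin).subset ?_
  rintro x ⟨⟨hx1, hx2⟩, hx3⟩
  refine mem_iUnion.2 ⟨x.1, x.2, ⟨hx1, hx2, fun h => hx3 ⟨hx1, h⟩⟩, rfl⟩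

/-- **Packing/covering for finite families of matroids of finite rank or finite corank.**
Every finite family of matroids on a common ground set `E` (of arbitrary cardinality), each member
of which has finite rank or finite corank, has a packing/covering partition. -/
theorem result {α ι : Type*} [Finite ι] (M : ι → Matroid α) (E : Set α)
    (hE : ∀ i, (M i).E = E) (h : ∀ i, (M i).RankFinite ∨ (M i)✶.RankFinite) :
    HasPackingCovering M E := by
  have hg := ground_eq M E hE
  have h1 : ((Matroid.sum' M) ↾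
      {x : ι × α | x.1 ∈ {i | ¬ (M i).RankFinite} ∧ x.2 ∈ E})✶.RankFinite :=
    sum_restrict_dual_rankFinite M E hE _ (fun i hi => (h i).resolve_left hi)
  have h2 : ((Matroid.sum' M) ↾ ((Matroid.sum' M).E \
      {x : ι × α | x.1 ∈ {i | ¬ (M i).RankFinite} ∧ x.2 ∈ E})).RankFinite := by
    apply sum_restrict_rankFinite
    rintro x ⟨hxE, hxX⟩
    by_contra hrf
    apply hxX
    refine ⟨hrf, ?_⟩
    rw [← hg] at hxE
    exact hxE
  obtain ⟨A, B, hdisj, hAN, hAM, hcl⟩ :=
    FiniteDefect.of_restrict _ (Matroid.sum' M) hg _ h1 h2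
  rw [part_indep_iff] at hAN
  obtain ⟨himg, hinj⟩ := hAN
  have hsl := sum'_indep_iff.1 hAM
  have hCE : Prod.snd '' A ⊆ E := (image_mono subset_union_left).trans himg
  have hSind : ∀ i, (M i).Indep (Prod.mk i ⁻¹' B) :=
    fun i => (hsl i).subset (preimage_mono subset_union_right)
  have hS_P : ∀ i, Prod.mk i ⁻¹' B ⊆ E \ Prod.snd '' A := by
    intro i e he
    refine ⟨himg ⟨(i, e), Or.inr he, rfl⟩, ?_⟩
    rintro ⟨⟨j, e'⟩, hjA, hje⟩
    have heq : (j, e') = (i, e) := hinj (Or.inl hjA) (Or.inr he) hje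
    rw [heq] at hjA
    exact (disjoint_left.1 hdisj) hjA he
  have hAind : ((Matroid.freeOn E).comap Prod.snd : Matroid (ι × α)).Indep A :=
    (part_indep_iff E A).2 ⟨hCE, hinj.mono subset_union_left⟩
  have hBind : (Matroid.sum' M).Indep B := hAM.subset subset_union_right
  -- every element outside `C` is spanned by `S i` in `M i`
  have hPcl : ∀ i, E \ Prod.snd '' A ⊆ (M i).closure (Prod.mk i ⁻¹' B) := by
    intro i e he
    have hx : (i, e) ∈ ((Matroid.freeOn E).comap Prod.snd : Matroid (ι × α)).closure A ∪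
        (Matroid.sum' M).closure B := by
      rw [hcl]
      exact he.1
    rcases hx with hx | hx
    · exfalso
      rw [hAind.mem_closure_iff'] at hx
      apply he.2
      by_cases hins : ((Matroid.freeOn E).comap Prod.snd : Matroid (ι × α)).Indep
          (insert (i, e) A)
      · exact ⟨(i, e), hx.2 hins, rfl⟩
      · rw [part_indep_iff] at hins
        have himg' : Prod.snd '' (insert (i, e) A) ⊆ E := by
          rintro _ ⟨z, rfl | hz, rfl⟩
          · exact he.1
          · exact hCE ⟨z, hz, rfl⟩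
        have hinj' : ¬ InjOn Prod.snd (insert (i, e) A) := fun hI => hins ⟨himg', hI⟩
        rw [InjOn] at hinj'
        push Not at hinj'
        obtain ⟨x, hxm, y, hym, hxy, hne⟩ := hinj'
        rcases hxm with rfl | hxA
        · rcases hym with rfl | hyA
          · exact absurd rfl hne
          · exact ⟨y, hyA, hxy.symm⟩
        · rcases hym with rfl | hyA
          · exact ⟨x, hxA, hxy⟩
          · exact absurd (hinj (Or.inl hxA) (Or.inl hyA) hxy) hne
    · rw [hBind.mem_closure_iff'] at hx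
      rw [(hSind i).mem_closure_iff']
      refine ⟨(hE i).symm ▸ he.1, fun hins => ?_⟩
      apply hx.2
      rw [sum'_indep_iff]
      intro j
      by_cases hj : j = i
      · subst hj
        have hpre : Prod.mk j ⁻¹' (insert (j, e) B) = insert e (Prod.mk j ⁻¹' B) := by
          ext z
          simp
        rw [hpre]
        exact hins
      · have hpre : Prod.mk j ⁻¹' (insert (i, e) B) = Prod.mk j ⁻¹' B := by
          ext z
          simp [hj]
        rw [hpre]
        exact hSind j
  have hPE : ∀ i, E \ Prod.snd '' A ⊆ (M i).E := fun i => (hE i).symm ▸ sdiff_subset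
  refine ⟨E \ Prod.snd '' A, Prod.snd '' A, fun i => Prod.mk i ⁻¹' B, fun i => Prod.mk i ⁻¹' A,
    disjoint_sdiff_left, sdiff_union_of_subset hCE, hS_P, ?_, ?_, ?_, ?_, ?_⟩
  · intro i j hij
    rw [disjoint_left]
    intro e hei hej
    have heq : (i, e) = (j, e) := hinj (Or.inr hei) (Or.inr hej) rfl
    exact hij (Prod.mk.inj heq).1
  · intro i
    rw [(M i).restrict_closure_eq (hS_P i) (hPE i)]
    exact inter_eq_right.2 (hPcl i)
  · intro i e he
    exact ⟨(i, e), he, rfl⟩
  · intro i
    have hbasis : (M i).IsBasis (Prod.mk i ⁻¹' B) (E \ Prod.snd '' A) :=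
      (hSind i).isBasis_of_subset_of_subset_closure (hS_P i) (hPcl i)
    have hCd : Prod.snd '' A ⊆ ((M i)✶).E := by
      rw [dual_ground, hE i]
      exact hCE
    rw [← delete_compl hCd, dual_delete_dual, dual_ground, hE i]
    rw [hbasis.contract_indep_iff, ← preimage_union]
    refine ⟨hsl i, ?_⟩
    rw [disjoint_left]
    intro e heP heA
    exact heP.2 ⟨(i, e), heA, rfl⟩
  · ext e
    simp only [mem_iUnion, mem_preimage, mem_image]
    constructor
    · rintro ⟨i, hi⟩
      exact ⟨(i, e), hi, rfl⟩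
    · rintro ⟨⟨i, e'⟩, hi, rfl⟩
      exact ⟨i, hi⟩

end Vale.Agent.Results.P068.PackingCovering
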