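import Mathlib
import Vale.Agent.Results.P068.FiniteDefect
import Vale.Agent.Results.P068.PackingCovering

/-!
# P068: the conjunction of the hand-ins `FiniteDefect` and `PackingCovering`

The first part is the statement of `P068.FiniteDefect` (matroid intersection, part (b) of Q1,
for pairs of matroids with a certificate up to finite rank defects, with its corollaries), the
second part is the statement of `P068.PackingCovering` (packing and covering, part (a) of Q1,
for finite families of matroids each of finite rank or finite corank). Both statements are
copied word for word and the proof only cites the two results.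
-/

namespace Vale.Agent.Results.P068.IntersectionAndPacking

open Set Matroid

open Vale.Agent.Results.P068.FiniteDefect (SatisfiesIntersection)

open Vale.Agent.Results.P068.PackingCovering (HasPackingCovering)

theorem result :
    (∀ {α : Type*} (M N : Matroid α), M.E = N.E →
      ((∃ J₀ X : Set α, M.Indep J₀ ∧ N.Indep J₀ ∧ ((M ↾ X) ／ (J₀ ∩ X)).RankFinite ∧
          ((N ↾ (M.E \ X)) ／ (J₀ \ X)).RankFinite) → SatisfiesIntersection M N) ∧
      ((∃ X : Set α, (N ↾ X)✶.RankFinite ∧ (N ↾ (N.E \ X)).RankFinite) →
        SatisfiesIntersection M N) ∧
      ((M.RankFinite ∨ N.RankFinite ∨ M✶.RankFinite ∨ N✶.RankFinite) →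
        SatisfiesIntersection M N) ∧
      (∀ (N₁ N₂ : Matroid α) (h : Disjoint N₁.E N₂.E), N = N₁.disjointSum N₂ h →
        N₁.RankFinite → N₂✶.RankFinite → SatisfiesIntersection M N)) ∧
    (∀ {α ι : Type*} [Finite ι] (M : ι → Matroid α) (E : Set α),
      (∀ i, (M i).E = E) → (∀ i, (M i).RankFinite ∨ (M i)✶.RankFinite) →
      HasPackingCovering M E) :=
  ⟨fun M N hE => FiniteDefect.result M N hE,
    fun M E hE h => PackingCovering.result M E hE h⟩

end Vale.Agent.Results.P068.IntersectionAndPacking
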